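import Vale.Agent.H72.GSH3.UnitClock
import Vale.Agent.H88.SF.Thin

/-!
# A clock modulo four, counted modulo two (board task Z4-DECOMP)

EXACT statement to prove (do not change it): `nclock4_decomp`.

Setting: every letter `y` has a weight `s y : ZMod 4`; `nclock s x ρ w` (file
`Vale/Agent/H88/SF/Thin.lean`, lemmas `nclock_nil`, `nclock_snoc`) is the number of positions of
`w` carrying `x` such that the weights of the earlier letters sum to `ρ`. Let `S₁` be the set of
letters of odd weight and `S₂` the set of letters of weight `2` or `3`, and for a word `v` let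
`U := v.countP (· ∈ S₁)`, `V := v.countP (· ∈ S₂)`. Then the sum of the weights of `v` is
`U + 2 * V` in `ZMod 4`, and for all natural numbers `U`, `V` and all `ρ : ZMod 4`
  `[U + 2 * V = ρ in ZMod 4]  ≡  [U ≡ ρ.val (mod 4)] + [U ≡ ρ.val (mod 2) and V odd]   (mod 2)`
(brackets: `1` if the statement holds, `0` otherwise). Summing over the positions carrying `x`
gives the claim: the first bracket gives `unitCount S₁ x 4 ρ.val` (file
`Vale/Agent/H72/GSH3/UnitClock.lean`, lemma `unitCount_snoc`), the second one the counter of the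
clock with values in `Fin 2 → ZMod 2` whose two coordinates are the parities of `U` and `V`, at
the value `(ρ.val mod 2, 1)`. Checked numerically.

Proof sketch. Induction on `w` from the right (`List.reverseRecOn`) with `nclock_snoc` (twice)
and `unitCount_snoc`; the three increments are `0` unless the last letter is `x`, and then the
pointwise congruence above is needed for `v := ` the word read so far. For it prove by
induction on `v`:
* `(v.map s).sum = ((U : ℕ) : ZMod 4) + 2 * ((V : ℕ) : ZMod 4)`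
  (each letter: `s y = (if (s y).val % 2 = 1 then 1 else 0) + 2 * (if (s y).val / 2 = 1 then 1 else 0)`,
  a finite check over `ZMod 4`, `decide` after `revert`);
* the vector clock of `v` is `fun j => if j = 0 then (U : ZMod 2) else (V : ZMod 2)`;
then reduce to `U % 4`, `V % 2` and finish by a finite case check (for instance
`have : ∀ (u : Fin 4) (v : Fin 2) (ρ : ZMod 4), ... := by decide`).
-/

namespace Vale.Agent.H72

open Vale.Agent.H88

universe u

theorem z4d_fin : ∀ (u : Fin 4) (v : Fin 2) (ρ : ZMod 4),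
    (((u.val : ℕ) : ZMod 4) + 2 * ((v.val : ℕ) : ZMod 4) = ρ) ↔
      ¬ ((u.val ≡ ρ.val [MOD 4]) ↔
        ((((u.val : ℕ) : ZMod 2) = ((ρ.val : ℕ) : ZMod 2)) ∧ ((v.val : ℕ) : ZMod 2) = 1)) := by
  decide

theorem z4d_arith (U V : ℕ) (ρ : ZMod 4) :
    (((U : ℕ) : ZMod 4) + 2 * ((V : ℕ) : ZMod 4) = ρ) ↔
      ¬ ((U ≡ ρ.val [MOD 4]) ↔
        ((((U : ℕ) : ZMod 2) = ((ρ.val : ℕ) : ZMod 2)) ∧ ((V : ℕ) : ZMod 2) = 1)) := by
  have h := z4d_fin ⟨U % 4, Nat.mod_lt _ (by norm_num)⟩ ⟨V % 2, Nat.mod_lt _ (by norm_num)⟩ ρ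
  have e1 : ((U % 4 : ℕ) : ZMod 4) = ((U : ℕ) : ZMod 4) := ZMod.natCast_mod U 4
  have e2 : (2 : ZMod 4) * ((V % 2 : ℕ) : ZMod 4) = 2 * ((V : ℕ) : ZMod 4) := by
    have hV : V = 2 * (V / 2) + V % 2 := (Nat.div_add_mod V 2).symm
    have h4 : (4 : ZMod 4) = 0 := by decide
    conv_rhs => rw [hV]
    push_cast
    have : (2 : ZMod 4) * (2 * ((V / 2 : ℕ) : ZMod 4) + ((V % 2 : ℕ) : ZMod 4)) =
        4 * ((V / 2 : ℕ) : ZMod 4) + 2 * ((V % 2 : ℕ) : ZMod 4) := by ring
    rw [this, h4, zero_mul, zero_add]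
  have e3 : ((U % 4 : ℕ) : ZMod 2) = ((U : ℕ) : ZMod 2) := by
    have hU : U = 4 * (U / 4) + U % 4 := (Nat.div_add_mod U 4).symm
    have h4 : (4 : ZMod 2) = 0 := by decide
    conv_rhs => rw [hU]
    push_cast
    rw [h4, zero_mul, zero_add]
  have e4 : ((V % 2 : ℕ) : ZMod 2) = ((V : ℕ) : ZMod 2) := ZMod.natCast_mod V 2
  have e5 : (U % 4 ≡ ρ.val [MOD 4]) ↔ (U ≡ ρ.val [MOD 4]) := by
    unfold Nat.ModEq
    rw [Nat.mod_mod]
  simp only [] at h
  rw [e1, e2, e3, e4, e5] at h
  exact h

theorem z4d_ite (P1 P2 P3 : Prop) {d1 : Decidable P1} {d2 : Decidable P2} {d3 : Decidable P3}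
    (h : P1 ↔ ¬ (P2 ↔ P3)) :
    (if P1 then 1 else 0) ≡ (if P2 then 1 else 0) + (if P3 then 1 else 0) [MOD 2] := by
  by_cases h2 : P2 <;> by_cases h3 : P3 <;> by_cases h1 : P1 <;>
    simp_all <;> decide

theorem z4d_letter4 : ∀ t : ZMod 4,
    t = (if t.val % 2 = 1 then 1 else 0) + 2 * (if t.val / 2 = 1 then 1 else 0) := by
  decide

theorem z4d_letter2a : ∀ t : ZMod 4,
    ((t.val : ℕ) : ZMod 2) = if t.val % 2 = 1 then 1 else 0 := by
  decide

theorem z4d_letter2b : ∀ t : ZMod 4,
    ((t.val / 2 : ℕ) : ZMod 2) = if t.val / 2 = 1 then 1 else 0 := by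
  decide

theorem z4d_sum {α : Type u} [Fintype α] [DecidableEq α] (s : α → ZMod 4) (v : List α) :
    (v.map s).sum =
      ((v.countP (fun y => y ∈ Finset.univ.filter fun y => (s y).val % 2 = 1) : ℕ) : ZMod 4) +
        2 * ((v.countP (fun y => (s y).val / 2 = 1) : ℕ) : ZMod 4) := by
  induction v with
  | nil => simp
  | cons y v ih =>
    rw [List.map_cons, List.sum_cons, ih, List.countP_cons, List.countP_cons]
    have hy := z4d_letter4 (s y)
    by_cases h1 : (s y).val % 2 = 1 <;> by_cases h2 : (s y).val / 2 = 1 <;>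
      simp [h1, h2] at hy ⊢ <;> rw [hy] <;> ring

theorem z4d_vec {α : Type u} [Fintype α] [DecidableEq α] (s : α → ZMod 4) (v : List α) :
    (v.map (fun y => fun j : Fin 2 =>
        if j = 0 then (((s y).val : ℕ) : ZMod 2) else ((((s y).val / 2 : ℕ)) : ZMod 2))).sum =
      fun j : Fin 2 =>
        if j = 0 then
          ((v.countP (fun y => y ∈ Finset.univ.filter fun y => (s y).val % 2 = 1) : ℕ) : ZMod 2)
        else ((v.countP (fun y => (s y).val / 2 = 1) : ℕ) : ZMod 2) := by
  induction v with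
  | nil => funext j; by_cases hj : j = 0 <;> simp [hj]
  | cons y v ih =>
    rw [List.map_cons, List.sum_cons, ih, List.countP_cons, List.countP_cons]
    funext j
    have ha := z4d_letter2a (s y)
    have hb := z4d_letter2b (s y)
    by_cases hj : j = 0
    · simp only [Pi.add_apply, hj, if_true]
      rw [ha]
      by_cases h1 : (s y).val % 2 = 1 <;> simp [h1] <;> ring
    · simp only [Pi.add_apply, hj, if_false]
      rw [hb]
      by_cases h2 : (s y).val / 2 = 1 <;> simp [h2] <;> ring

theorem z4d_point {α : Type u} [Fintype α] [DecidableEq α] (s : α → ZMod 4) (ρ : ZMod 4)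
    (v : List α) :
    ((v.map s).sum = ρ) ↔
      ¬ ((v.countP (fun y => y ∈ Finset.univ.filter fun y => (s y).val % 2 = 1) ≡ ρ.val [MOD 4]) ↔
        ((v.map (fun y => fun j : Fin 2 =>
          if j = 0 then (((s y).val : ℕ) : ZMod 2) else ((((s y).val / 2 : ℕ)) : ZMod 2))).sum =
          fun j : Fin 2 => if j = 0 then ((ρ.val : ℕ) : ZMod 2) else 1)) := by
  rw [z4d_sum, z4d_vec, z4d_arith]
  have hv : ∀ (a b c : ZMod 2),
      ((fun j : Fin 2 => if j = 0 then a else b) = fun j : Fin 2 => if j = 0 then c else 1) ↔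
        (a = c ∧ b = 1) := by
    intro a b c
    rw [funext_iff, Fin.forall_fin_two]
    simp
  rw [hv]

theorem nclock4_decomp {α : Type u} [Fintype α] [DecidableEq α] (s : α → ZMod 4) (x : α)
    (ρ : ZMod 4) (w : List α) :
    nclock s x ρ w ≡
      unitCount (Finset.univ.filter fun y => (s y).val % 2 = 1) x 4 ρ.val w +
        nclock (fun y => fun j : Fin 2 =>
            if j = 0 then (((s y).val : ℕ) : ZMod 2) else ((((s y).val / 2 : ℕ)) : ZMod 2)) x
          (fun j : Fin 2 => if j = 0 then ((ρ.val : ℕ) : ZMod 2) else 1) w [MOD 2] := by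
  induction w using List.reverseRecOn with
  | nil =>
    rw [nclock_nil, nclock_nil, unitCount_nil]
  | append_singleton w a ih =>
    rw [nclock_snoc, nclock_snoc, unitCount_snoc, Nat.add_add_add_comm]
    apply Nat.ModEq.add ih
    apply z4d_ite
    have hp := z4d_point s ρ w
    by_cases hax : a = x
    · simp only [hax, true_and]
      exact hp
    · simp [hax]

end Vale.Agent.H72
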