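import Vale.Agent.H88.SF.GrpProd

/-!
# Products in a group with an abelian normal subgroup of exponent `E` (board task Z4-PROD)

EXACT statement to prove (do not change it): `prod_eq_of_nclock_modEq_exp`.

This is a sharper form of `prod_eq_of_nclock_modEq` (file `Vale/Agent/H88/SF/GrpProd.lean`):
the counters are only compared modulo a number `E` such that every element of the kernel of `π`
has `E`-th power `1`, and the equality of the two clocks is a separate hypothesis.

Proof: copy the proof of `prod_eq_of_nclock_modEq` with two changes. (1) The equality `hcl` of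
the clocks is now the hypothesis `hclock` (the parts `hsum`, `hmod` are not needed). (2) In
`hKeq`, the equality of the powers `κ' c y ^ n = κ' c y ^ n'` for `n ≡ n' [MOD E]` follows from
`pow_eq_pow_iff_modEq` and `orderOf_dvd_of_pow_eq_one` applied to `hE (κ c y) (hκ c y)` (then
`Nat.ModEq.of_dvd`). Everything else (the transversal `t`, the elements `κ`, the commutative
group structure on the kernel, the product formula `hmain`) is unchanged.
-/

namespace Vale.Agent.H72

open Vale.Agent.H88

universe u

theorem prod_eq_of_nclock_modEq_exp {α : Type u} [Fintype α] {G : Type*} [Group G] {V : Type*}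
    [AddCommGroup V] [Fintype V] (E : ℕ) (π : G →* Multiplicative V)
    (hab : ∀ a b : G, π a = 1 → π b = 1 → a * b = b * a)
    (hE : ∀ a : G, π a = 1 → a ^ E = 1) (φ : α → G) (w w' : List α)
    (hclock : (w.map fun a => Multiplicative.toAdd (π (φ a))).sum =
      (w'.map fun a => Multiplicative.toAdd (π (φ a))).sum)
    (h : ∀ (x : α) (c : V),
      nclock (fun a => Multiplicative.toAdd (π (φ a))) x c w ≡
        nclock (fun a => Multiplicative.toAdd (π (φ a))) x c w' [MOD E]) :
    (w.map φ).prod = (w'.map φ).prod := by
  classical
  -- the weight of a letter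
  have hclk : ∀ u : List α, π ((u.map φ).prod) =
      Multiplicative.ofAdd ((u.map fun a => Multiplicative.toAdd (π (φ a))).sum) := by
    intro u
    induction u with
    | nil => simp
    | cons a u ih =>
      rw [List.map_cons, List.prod_cons, map_mul, ih, List.map_cons, List.sum_cons, ofAdd_add]
      rfl
  -- a transversal of the range of `π`
  let t : V → G := fun c => if hc : ∃ g, π g = Multiplicative.ofAdd c then hc.choose else 1
  have ht : ∀ c, (∃ g, π g = Multiplicative.ofAdd c) → π (t c) = Multiplicative.ofAdd c := by
    intro c hc
    simp only [t, dif_pos hc]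
    exact hc.choose_spec
  let κ : V → α → G := fun c y =>
    if π (t c) = Multiplicative.ofAdd c then
      t c * φ y * (t (c + Multiplicative.toAdd (π (φ y))))⁻¹ else 1
  have hκ : ∀ c y, π (κ c y) = 1 := by
    intro c y
    by_cases hc : π (t c) = Multiplicative.ofAdd c
    · have h1 : π (t c * φ y) = Multiplicative.ofAdd (c + Multiplicative.toAdd (π (φ y))) := by
        rw [map_mul, hc, ofAdd_add]
        rfl
      have h2 := ht (c + Multiplicative.toAdd (π (φ y))) ⟨_, h1⟩
      simp only [κ, if_pos hc]
      rw [map_mul, map_inv, h2, h1, mul_inv_cancel]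
    · simp only [κ, if_neg hc, map_one]
  -- the kernel is commutative
  let _ : CommGroup π.ker :=
    { (inferInstance : Group π.ker) with
      mul_comm := fun a b =>
        Subtype.ext (hab a b (MonoidHom.mem_ker.1 a.2) (MonoidHom.mem_ker.1 b.2)) }
  let κ' : V → α → π.ker := fun c y => ⟨κ c y, MonoidHom.mem_ker.2 (hκ c y)⟩
  let K : List α → π.ker := fun u =>
    ∏ y : α, ∏ c : V, κ' c y ^ nclock (fun a => Multiplicative.toAdd (π (φ a))) y c u
  have hK_snoc : ∀ (u : List α) (y : α), K (u ++ [y]) =
      K u * κ' ((u.map fun a => Multiplicative.toAdd (π (φ a))).sum) y := by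
    intro u y
    simp only [K, nclock_snoc, pow_add, Finset.prod_mul_distrib]
    congr 1
    rw [Finset.prod_eq_single y, Finset.prod_eq_single
      ((u.map fun a => Multiplicative.toAdd (π (φ a))).sum)]
    · simp
    · intro c _ hc
      rw [if_neg (fun hh => hc hh.2.symm), pow_zero]
    · intro hh
      exact absurd (Finset.mem_univ _) hh
    · intro x _ hx
      apply Finset.prod_eq_one
      intro c _
      rw [if_neg (fun hh => hx hh.1.symm), pow_zero]
    · intro hh
      exact absurd (Finset.mem_univ _) hh
  have hmain : ∀ u : List α, t 0 * (u.map φ).prod =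
      (K u : G) * t ((u.map fun a => Multiplicative.toAdd (π (φ a))).sum) := by
    intro u
    induction u using List.reverseRecOn with
    | nil =>
      have hK1 : K [] = 1 := by
        simp only [K, nclock_nil, pow_zero, Finset.prod_const_one]
      rw [hK1]
      simp
    | append_singleton u y ih =>
      have hc : π (t ((u.map fun a => Multiplicative.toAdd (π (φ a))).sum)) =
          Multiplicative.ofAdd ((u.map fun a => Multiplicative.toAdd (π (φ a))).sum) :=
        ht _ ⟨_, hclk u⟩
      have hκv : (κ' ((u.map fun a => Multiplicative.toAdd (π (φ a))).sum) y : G) =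
          t ((u.map fun a => Multiplicative.toAdd (π (φ a))).sum) * φ y *
            (t ((u.map fun a => Multiplicative.toAdd (π (φ a))).sum +
              Multiplicative.toAdd (π (φ y))))⁻¹ := by
        show κ _ y = _
        simp only [κ, if_pos hc]
      rw [List.map_append, List.prod_append, ← mul_assoc, ih, hK_snoc, Subgroup.coe_mul, hκv]
      simp [mul_assoc]
  have hKeq : K w = K w' := by
    simp only [K]
    refine Finset.prod_congr rfl fun y _ => Finset.prod_congr rfl fun c _ => ?_
    apply Subtype.ext
    rw [Subgroup.coe_pow, Subgroup.coe_pow]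
    apply pow_eq_pow_iff_modEq.2
    exact (h y c).of_dvd (orderOf_dvd_of_pow_eq_one (hE (κ c y) (hκ c y)))
  have h1 := hmain w
  have h2 := hmain w'
  rw [hKeq, hclock, ← h2] at h1
  exact mul_left_cancel h1


end Vale.Agent.H72
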