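import Vale.Agent.H72.Pos.Unit
import Vale.Agent.H72.Z4.Decomp
import Vale.Agent.H72.Z4.Prod
import Vale.Agent.H88.SF.Grp

/-!
# Groups with a normal elementary abelian 2-subgroup and cyclic quotient of order four

Every language recognized by a finite group `G` admitting a homomorphism to `ZMod 4` all of
whose kernel elements are involutions (for instance the wreath product of `ZMod 2` by `ZMod 4`)
has generalized star height at most one (`hasGSH_group_Z4`).
-/

namespace Vale.Agent.H72

open Vale.Agent.H88 Language

universe u

/-- Counting modulo two the letters read at a prescribed value of a clock modulo four. -/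
theorem hasGSH_nclock4 {α : Type u} [Fintype α] [DecidableEq α] (s : α → ZMod 4) (x : α)
    (ρ : ZMod 4) (c : ℕ) : HasGSH (modLang (nclock s x ρ) 2 c) 1 := by
  have : Fact (Nat.Prime 2) := ⟨Nat.prime_two⟩
  have hA : ∀ r, HasGSH (modLang
      (unitCount (Finset.univ.filter fun y => (s y).val % 2 = 1) x 4 ρ.val) 2 r) 1 :=
    fun r => hasGSH_unitCount_full _ x 4 2 (by norm_num) (by norm_num) ρ.val r
  have hB : ∀ r, HasGSH (modLang
      (nclock (fun y => fun j : Fin 2 =>
            if j = 0 then (((s y).val : ℕ) : ZMod 2) else ((((s y).val / 2 : ℕ)) : ZMod 2)) x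
          (fun j : Fin 2 => if j = 0 then ((ρ.val : ℕ) : ZMod 2) else 1)) 2 r) 1 :=
    fun r => hasGSH_nclock_vec 2 _ x _ 2 (by norm_num) r
  have h := hasGSH_modLang_add 2 (by norm_num) hA hB c
  refine h.of_eq ?_
  ext w
  have e := nclock4_decomp s x ρ w
  exact ⟨fun h1 => e.trans h1, fun h1 => e.symm.trans h1⟩

/-- The sum of the weights of a word in terms of its letter counts. -/
theorem sum_map_eq_count {α : Type u} [Fintype α] [DecidableEq α] {V : Type*} [AddCommMonoid V]
    (s : α → V) (w : List α) : (w.map s).sum = ∑ x : α, w.count x • s x := by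
  induction w with
  | nil => simp
  | cons y w ih =>
    rw [List.map_cons, List.sum_cons, ih]
    have e : ∀ x : α, (y :: w).count x • s x = w.count x • s x + if x = y then s x else 0 := by
      intro x
      rw [List.count_cons]
      by_cases h : x = y
      · subst h
        simp [add_smul]
      · have h' : ¬ (y = x) := fun e => h e.symm
        simp [h, h']
    simp_rw [e]
    rw [Finset.sum_add_distrib, Finset.sum_ite_eq' Finset.univ y]
    simp [add_comm]

/-- **Groups with a normal elementary abelian 2-subgroup and cyclic quotient of order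
dividing four.** -/
theorem hasGSH_group_Z4 {α : Type u} [Fintype α] {G : Type*} [Group G] [Fintype G]
    (π : G →* Multiplicative (ZMod 4)) (h2 : ∀ a : G, π a = 1 → a * a = 1) (φ : α → G)
    (S : Set G) : HasGSH ({w | (w.map φ).prod ∈ S} : Language α) 1 := by
  classical
  have hinv : ∀ a : G, π a = 1 → a⁻¹ = a := fun a ha => inv_eq_of_mul_eq_one_left (h2 a ha)
  have hab : ∀ a b : G, π a = 1 → π b = 1 → a * b = b * a := by
    intro a b ha hb
    have hab1 : π (a * b) = 1 := by rw [map_mul, ha, hb, mul_one]
    calc a * b = (a * b)⁻¹ := (hinv _ hab1).symm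
      _ = b⁻¹ * a⁻¹ := mul_inv_rev a b
      _ = b * a := by rw [hinv a ha, hinv b hb]
  have hE : ∀ a : G, π a = 1 → a ^ 2 = 1 := fun a ha => by rw [pow_two]; exact h2 a ha
  refine hasGSH_of_determined (ι := (α × ZMod 4) ⊕ α)
    (fun i => match i with
      | Sum.inl (x, c) => fun w =>
          nclock (fun a => Multiplicative.toAdd (π (φ a))) x c w % 2
      | Sum.inr x => fun w => w.count x) 4 (by norm_num) ?_ _ ?_
  · rintro (⟨x, c⟩ | x) r
    · have hN := hasGSH_nclock4 (fun a => Multiplicative.toAdd (π (φ a))) x c
      have key : modLang (fun w : List α =>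
            nclock (fun a => Multiplicative.toAdd (π (φ a))) x c w % 2) 4 r =
          if r % 4 = 0 then modLang (nclock (fun a => Multiplicative.toAdd (π (φ a))) x c) 2 0
          else if r % 4 = 1 then
            modLang (nclock (fun a => Multiplicative.toAdd (π (φ a))) x c) 2 1
          else 0 := by
        ext w
        have hlt : nclock (fun a => Multiplicative.toAdd (π (φ a))) x c w % 2 < 2 :=
          Nat.mod_lt _ (by norm_num)
        have hr : r % 4 < 4 := Nat.mod_lt _ (by norm_num)
        have e0 : (w ∈ modLang (fun w : List α =>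
            nclock (fun a => Multiplicative.toAdd (π (φ a))) x c w % 2) 4 r) ↔
            nclock (fun a => Multiplicative.toAdd (π (φ a))) x c w % 2 = r % 4 := by
          change (nclock (fun a => Multiplicative.toAdd (π (φ a))) x c w % 2) % 4 = r % 4 ↔ _
          rw [Nat.mod_eq_of_lt (lt_trans hlt (by norm_num))]
        rw [e0]
        by_cases h0 : r % 4 = 0
        · rw [if_pos h0, h0]
          exact Iff.rfl
        · rw [if_neg h0]
          by_cases h1 : r % 4 = 1
          · rw [if_pos h1, h1]
            exact Iff.rfl
          · rw [if_neg h1]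
            constructor
            · intro h
              exfalso
              omega
            · intro h
              exact absurd h (Language.notMem_zero w)
      rw [key]
      by_cases h0 : r % 4 = 0
      · rw [if_pos h0]
        exact hN 0
      · rw [if_neg h0]
        by_cases h1 : r % 4 = 1
        · rw [if_pos h1]
          exact hN 1
        · rw [if_neg h1]
          exact HasGSH.zero
    · exact hasGSH_count x 4 (by norm_num) r
  · intro w w' hww hw
    have hclock : (w.map fun a => Multiplicative.toAdd (π (φ a))).sum =
        (w'.map fun a => Multiplicative.toAdd (π (φ a))).sum := by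
      rw [sum_map_eq_count, sum_map_eq_count]
      refine Finset.sum_congr rfl fun x _ => ?_
      have h1 : w.count x ≡ w'.count x [MOD 4] := hww (Sum.inr x)
      rw [nsmul_eq_mul, nsmul_eq_mul, (ZMod.natCast_eq_natCast_iff _ _ _).2 h1]
    have hn : ∀ (x : α) (c : ZMod 4),
        nclock (fun a => Multiplicative.toAdd (π (φ a))) x c w ≡
          nclock (fun a => Multiplicative.toAdd (π (φ a))) x c w' [MOD 2] := by
      intro x c
      have h1 : nclock (fun a => Multiplicative.toAdd (π (φ a))) x c w % 2 ≡
          nclock (fun a => Multiplicative.toAdd (π (φ a))) x c w' % 2 [MOD 4] :=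
        hww (Sum.inl (x, c))
      have hlt : nclock (fun a => Multiplicative.toAdd (π (φ a))) x c w % 2 < 2 :=
        Nat.mod_lt _ (by norm_num)
      have hlt' : nclock (fun a => Multiplicative.toAdd (π (φ a))) x c w' % 2 < 2 :=
        Nat.mod_lt _ (by norm_num)
      unfold Nat.ModEq at h1 ⊢
      omega
    have hprod := prod_eq_of_nclock_modEq_exp 2 π hab hE φ w w' hclock hn
    change (w'.map φ).prod ∈ S
    rw [← hprod]
    exact hw

end Vale.Agent.H72
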